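import Vale.Agent.P088.H442.C.Defs

/-!
# P088, Theorem D: semi-global uniqueness near the whole conformal class; definitions and rows

Base `g₁ = c₁ e`, `c₁ > 0` arbitrary. Second metric `g` = `g₁` off `Ω`, bounded in `C^k` by `B`, and
`C^0`-close to SOME conformally flat metric (its conformal factor may be far from `c₁`).
Tensor form: base `φ² · 1`, second tensor `φ₂² t`, `t` near `1`, `φ₂` arbitrary, `φ₂ = φ` off `Ω`.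
-/

open MeasureTheory Set
open scoped ContDiff Matrix

noncomputable section

namespace Vale.Agent.P088.LR.CD

open CF CC

variable {n : ℕ}

/-- The base `φ² · 1` and the tensor `φ₂² t`, `t = 1` and `φ₂ = φ` off `Ω`,
`div (t ∇φ₂) = q φ₂`, orthogonality. -/
structure B2 (Ω : Set (V n)) (φ q₀ φ₂ : V n → ℝ) (t : MF n) (q : V n → ℝ) : Prop where
  ba : Ba φ q₀
  op : IsOpen Ω
  reg : interior (closure Ω) = Ω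
  sub : Ω ⊆ bal n
  p₂ : SmP φ₂
  off₂ : ∀ x ∉ Ω, φ₂ x = φ x
  sm : SmM t
  sy : ∀ x, (t x).IsSymm
  off : ∀ x ∉ Ω, t x = 1
  sq : ContDiff ℝ ∞ q
  eq : ∀ x, dv t (cx φ₂) x = (q x : ℂ) * φ₂ x
  st : St2 Ω (sc (fun x => φ x ^ 2)) (fun x => φ₂ x ^ 2 • t x)

/-- (D_BA) supports: derivatives of `t - 1`, `φ₂ - φ` vanish off the regular set `Ω`. -/
def RowBAD : Prop := ∀ {n : ℕ} (Ω : Set (V n)) (φ q₀ φ₂ : V n → ℝ) (t : MF n) (q : V n → ℝ),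
  B2 Ω φ q₀ φ₂ t q → (∀ x ∉ bal n, q₀ x = 0) ∧ (∀ x ∉ bal n, q x = 0) ∧ ∀ x ∉ Ω, q x = q₀ x

/-- (D_ID) the identity for `u = φ U`, `v = φ₂ V`:
`∫ s₂(∇U, ∇V) = ∫ s₂(∇(u/φ₂), ∇V)` since `u/φ₂ - U = 0` off `Ω`, and the same with `φ`; the field
`t∇φ₂ (uv/φ₂) - ∇φ (uv/φ)` vanishes off `Ω`. -/
def RowIDD : Prop := ∀ {n : ℕ} (Ω : Set (V n)) (φ q₀ φ₂ : V n → ℝ) (t : MF n) (q : V n → ℝ),
  B2 Ω φ q₀ φ₂ t q → StR Ω t q₀ q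

/-- (D_QB) bound of `q = div (t ∇φ₂) / φ₂`. -/
def RowQBD : Prop := ∀ (n m : ℕ) (B : ℝ), ∃ C : ℝ, 1 ≤ C ∧ ∀ (φ₂ q : V n → ℝ) (t : MF n),
  SmP φ₂ → SmM t → ContDiff ℝ ∞ q → (∀ x, dv t (cx φ₂) x = (q x : ℂ) * φ₂ x) →
  Cl (m + 2) B (cx φ₂) → (∀ x, (φ₂ x)⁻¹ ≤ B) → (∀ i j, Cl (m + 1) 1 (ent t i j)) →
  Cl m C (cx q)

/-- (D_SF) low frequencies of `q - q₀` in the frame `e_{i₀}`; from `RowCGC` with `M = 0` for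
`(1, q₀; 1, q₀)`, `a = 0`, at `zs 1 i₀ (ξ - ρ p)` and for `(1, q; t, q)` at `zs (-1) i₀ (ξ + ρ p)`,
`ρ² = X² - |ξ|²`, and D_ID; `q` is NOT near `q₀`. -/
def RowSFD : Prop := ∀ (n : ℕ) (B : ℝ), ∃ C : ℝ, 1 ≤ C ∧ ∀ (i₀ : Fin n) (ξ p : V n),
  ξ i₀ = 0 → p i₀ = 0 → nr p = 1 → ∑ j, p j * ξ j = 0 → ∀ X : ℝ, C ≤ X → 2 * nr ξ ≤ X →
  ∀ (Ω : Set (V n)) (φ q₀ φ₂ : V n → ℝ) (t : MF n) (q : V n → ℝ), B2 Ω φ q₀ φ₂ t q →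
  Cl (n + 1) B (cx q₀) → Cl (n + 1) B (cx q) → ∀ a : ℝ, 0 ≤ a →
  (∀ i j, Cl (n + 1) a (ent t i j)) → C * X * a ≤ 1 →
  ‖ft (fun x => cx q x - cx q₀ x) ξ‖ ≤ C * (1 / X + X ^ 2 * a)

/-- (D_GG) all frequencies (from D_SF by the reflections of H952, H188/RotC, H900/GG). -/
def RowGGD : Prop := ∀ n : ℕ, 3 ≤ n → ∀ B : ℝ, ∃ C : ℝ, 1 ≤ C ∧ ∀ (ξ : V n) (X : ℝ), C ≤ X →
  2 * nr ξ ≤ X →
  ∀ (Ω : Set (V n)) (φ q₀ φ₂ : V n → ℝ) (t : MF n) (q : V n → ℝ), B2 Ω φ q₀ φ₂ t q →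
  Cl (n + 1) B (cx q₀) → Cl (n + 1) B (cx q) → ∀ a : ℝ, 0 ≤ a →
  (∀ i j, Cl (n + 1) a (ent t i j)) → C * X * a ≤ 1 →
  ‖ft (fun x => cx q x - cx q₀ x) ξ‖ ≤ C * (1 / X + X ^ 2 * a)

/-- (D_EN) `φ₂ - φ` is controlled by `q - q₀` and `t - 1`: `f = (φ₂ - φ) / φ`,
`gf φ f = φ⁻¹ ((q - q₀) φ₂ - div ((t - 1) ∇φ₂))`, and `RowENC`. -/
def RowEND : Prop := ∀ n : ℕ, 1 ≤ n → ∀ φ q₀ : V n → ℝ, Ba φ q₀ → ∀ B : ℝ, ∃ C : ℝ, 1 ≤ C ∧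
  ∀ (Ω : Set (V n)) (φ₂ : V n → ℝ) (t : MF n) (q : V n → ℝ), B2 Ω φ q₀ φ₂ t q →
  Cl 2 B (cx φ₂) → ∀ d : ℝ, 0 ≤ d → (∀ x, ‖cx q x - cx q₀ x‖ ≤ d) →
  (∀ i j, Cl 1 d (ent t i j)) → ∀ x, |φ₂ x - φ x| ≤ C * d

/-- (D_SM) `φ₂` is near `φ`; from QB, GG, BA, EN and `RowSUC` (`m = 0`, `L = 1`). -/
def RowSMD : Prop := ∀ n : ℕ, 3 ≤ n → ∃ k : ℕ, ∀ φ q₀ : V n → ℝ, Ba φ q₀ → ∀ B η : ℝ, 0 < η →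
  ∃ ε > 0, ∀ (Ω : Set (V n)) (φ₂ : V n → ℝ) (t : MF n) (q : V n → ℝ), B2 Ω φ q₀ φ₂ t q →
  Cl k B (cx φ₂) → (∀ x, (φ₂ x)⁻¹ ≤ B) → (∀ i j, Cl k ε (ent t i j)) → ∀ x, |φ₂ x - φ x| ≤ η

/-- Theorem D, tensor form: bounds of order `k`, smallness of `t - 1` only in `C^0`. -/
def RigD (n k : ℕ) (φ : V n → ℝ) (B ε : ℝ) : Prop :=
  ∀ Ω : Set (V n), IsOpen Ω → interior (closure Ω) = Ω → Ω ⊆ bal n → ∀ (φ₂ : V n → ℝ) (t : MF n),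
  SmP φ₂ → SmM t → (∀ x, (t x).IsSymm) → (∀ x ∉ Ω, φ₂ x = φ x) → (∀ x ∉ Ω, t x = 1) →
  Cl k B (cx φ₂) → (∀ x, (φ₂ x)⁻¹ ≤ B) → (∀ i j, Cl k B (ent t i j)) →
  (∀ i j x, ‖ent t i j x‖ ≤ ε) → St2 Ω (sc (fun x => φ x ^ 2)) (fun x => φ₂ x ^ 2 • t x) →
  ∃ w K, Dif Ω w K ∧ ∀ x, psh (fun x => φ₂ x ^ 2 • t x) w K x = sc (fun x => φ x ^ 2) x

/-- (D_TOP) from `RowTOP`, D_SM, `RowBAC`, `RowINC` (interpolation for `t - 1` and `φ₂ - φ`). -/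
def RowTOPD : Prop := ∀ n : ℕ, 3 ≤ n → ∃ k : ℕ, ∀ φ : V n → ℝ, SmP φ →
  (∀ x ∉ bal n, φ x = 1) → ∀ B : ℝ, ∃ ε > 0, RigD n k φ B ε

/-- Semi-global uniqueness, domains in the box of radius `R`, data `D`: `g = c e` off `Ω`; on `Ω`:
derivatives of `g` of order at most `k` bounded by `B`, `det g ≥ 1 / B`, and `g` is within `ε` (no
derivatives) of the conformally flat metric `(det g)^(1/n) e`. -/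
def LocD (n : ℕ) (D : Set (V n) → MF n → MF n → Prop) (k : ℕ) (c : V n → ℝ) (B ε R : ℝ) : Prop :=
  ∀ Ω : Set (V n), IsOpen Ω → interior (closure Ω) = Ω → (∀ x ∈ Ω, ∀ j, |x j| ≤ R) →
  ∀ g : MF n, SmM g → (∀ x, (g x).PosDef) → (∀ x ∉ Ω, g x = sc c x) →
  (∀ i j, ∀ l ≤ k, ∀ x ∈ Ω, ‖iteratedFDeriv ℝ l (fun x => g x i j) x‖ ≤ B) →
  (∀ x ∈ Ω, B⁻¹ ≤ (g x).det) →
  (∀ i j, ∀ x ∈ Ω, |g x i j - sc (fun x => (g x).det ^ (1 / (n : ℝ))) x i j| ≤ ε) →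
  D Ω (sg (sc c)) (sg g) →
  ∃ w K, Dif Ω w K ∧ ∀ x, g x = c (x + w x) • ((jm w x)ᵀ * jm w x)

/-- (D_MET) metric form from D_TOP: `t = (det g)^(1/n) g⁻¹`, `φ₂ = (det g)^((n-2)/(4n))`, scaling as
in H442/C/Met. -/
def RowMETD : Prop := ∀ n : ℕ, 3 ≤ n → ∃ k : ℕ, ∀ R : ℝ, 0 < R → ∀ c : V n → ℝ, SmP c →
  ∀ B : ℝ, 0 < B → ∃ ε > 0, LocD n (fun Ω s t => St2 Ω s t) k c B ε R

end Vale.Agent.P088.LR.CD
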