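import Vale.Agent.P088.H442.C.Fin
import Vale.Agent.P088.H925.DSf
import Vale.Agent.P088.H900.GGD
import Vale.Agent.P088.H129.DBa
import Vale.Agent.P088.H129.DId
import Vale.Agent.P088.H292.QBd
import Vale.Agent.P088.H378.DEn
import Vale.Agent.P088.H323.DSm
import Vale.Agent.P088.H738.DTop

/-!
# P088, Theorem D: all rows plugged in (tensor form)
-/

open MeasureTheory Set
open scoped ContDiff Matrix

noncomputable section

namespace Vale.Agent.P088.H833.D

open LR.CD

/-- The low frequencies of the difference of the potentials. -/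
theorem sfd_all : RowSFD :=
  Vale.Agent.P088.H925.SFD.sfd Vale.Agent.P088.H639.CG.cgc Vale.Agent.P088.LR.CD.H129.idd
    Vale.Agent.P088.LR.CD.H129.bad

/-- The conformal factor of the second metric is near that of the base. -/
theorem smd_all : RowSMD :=
  H323.smd H292.QB.qbd (H900.ggd sfd_all) Vale.Agent.P088.LR.CD.H129.bad
    Vale.Agent.P088.LR.CD.H378.end_

/-- **Theorem D**, tensor form. -/
theorem topD_all : RowTOPD :=
  Vale.Agent.P088.LR.CD.H738.topD LR.CC.rowTOP442 smd_all Vale.Agent.P088.LR.CC.H129.bac
    H323.rowIN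

end Vale.Agent.P088.H833.D

end
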