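import Vale.Agent.P088.H833.D.Top
import Vale.Agent.P088.H188.MetD

/-!
# P088, Theorem D: metric form, all rows plugged in
-/

noncomputable section

namespace Vale.Agent.P088.H833.D

/-- **Theorem D**, metric form. -/
theorem metD_all : Vale.Agent.P088.LR.CD.RowMETD := Vale.Agent.P088.H188.metd topD_all

end Vale.Agent.P088.H833.D

end
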