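import Vale.Agent.P088.H833.D.Defs

/-!
# P088, Theorem D: row D_SM (assembly 1)
-/

open MeasureTheory Set
open scoped ContDiff Matrix

noncomputable section

namespace Vale.Agent.P088.H833.D

open Vale.Agent.P088.LR Vale.Agent.P088.LR.CF Vale.Agent.P088.LR.CC Vale.Agent.P088.LR.CD

variable {n : ℕ}

theorem b2_empty {φ q₀ : V n → ℝ} (h : Ba φ q₀) : B2 ∅ φ q₀ φ (fun _ => 1) q₀ where
  ba := h
  op := isOpen_empty
  reg := by simp
  sub := empty_subset _
  p₂ := h.p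
  off₂ := fun _ _ => rfl
  sm := fun i j => contDiff_const
  sy := fun _ => Matrix.isSymm_one
  off := fun _ _ => rfl
  sq := h.sq
  eq := h.eq
  st := by
    intro U W _ _ _ _
    unfold bl
    simp

theorem bal_cpt : IsCompact (bal n) := by
  have hcl : IsClosed (bal n) := by
    refine isClosed_le (f := fun x : V n => ∑ j, (x j - 1 / 2) ^ 2) (by fun_prop)
      continuous_const
  refine Metric.isCompact_of_isClosed_isBounded hcl ?_
  refine (Metric.isBounded_Icc (fun _ : Fin n => (0 : ℝ)) (fun _ => 1)).subset fun x hx => ?_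
  have h2 : ∀ j, (x j - 1 / 2) ^ 2 ≤ 1 / 16 := fun j =>
    (Finset.single_le_sum (f := fun j => (x j - 1 / 2) ^ 2) (fun i _ => sq_nonneg _)
      (Finset.mem_univ j)).trans hx
  exact ⟨fun j => by nlinarith [h2 j, sq_nonneg (x j - 1 / 4), sq_nonneg (x j + 1)],
    fun j => by nlinarith [h2 j, sq_nonneg (x j - 3 / 4), sq_nonneg (x j - 2)]⟩

theorem bal_core833 {x : V n} (hx : x ∉ core n) : x ∉ bal n := by
  intro h
  refine hx fun j => ?_
  have h2 : (x j - 1 / 2) ^ 2 ≤ 1 / 16 :=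
    (Finset.single_le_sum (f := fun j => (x j - 1 / 2) ^ 2) (fun i _ => sq_nonneg _)
      (Finset.mem_univ j)).trans h
  have h3 : |x j - 1 / 2| ≤ 1 / 4 := by
    refine abs_le_of_sq_le_sq ?_ (by norm_num)
    nlinarith
  rw [abs_le] at h3
  constructor <;> linarith [h3.1, h3.2]

theorem sm_cx {f : V n → ℝ} (hf : ContDiff ℝ ∞ f) : ContDiff ℝ ∞ (cx f) :=
  Complex.ofRealCLM.contDiff.comp hf

theorem exists_cl833 {m : ℕ} {f : V n → ℂ} (hf : ContDiff ℝ ∞ f) (h0 : ∀ x ∉ bal n, f x = 0) :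
    ∃ B : ℝ, 0 ≤ B ∧ Cl m B f := by
  have hc : HasCompactSupport f := HasCompactSupport.intro bal_cpt h0
  have h : ∀ l : ℕ, ∃ C, ∀ x, ‖iteratedFDeriv ℝ l f x‖ ≤ C := fun l =>
    (hf.continuous_iteratedFDeriv (m := l) (by exact_mod_cast le_top)).bounded_above_of_compact_support
      (hc.iteratedFDeriv l)
  choose C hC using h
  refine ⟨∑ l ∈ Finset.range (m + 1), |C l|, Finset.sum_nonneg fun _ _ => abs_nonneg _,
    fun l hl x => (hC l x).trans ((le_abs_self _).trans ?_)⟩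
  exact Finset.single_le_sum (f := fun l => |C l|) (fun i _ => abs_nonneg _)
    (Finset.mem_range.mpr (by omega))

theorem cl_up {F : Type*} [NormedAddCommGroup F] [NormedSpace ℝ F] {k l : ℕ} {a b : ℝ}
    {f : V n → F} (h : Cl k a f) (hl : l ≤ k) (hab : a ≤ b) : Cl l b f :=
  fun j hj x => (h j (hj.trans hl) x).trans hab

theorem cl_subC {k : ℕ} {a b : ℝ} {f g : V n → ℂ} (hf : ContDiff ℝ ∞ f) (hg : ContDiff ℝ ∞ g)
    (h1 : Cl k a f) (h2 : Cl k b g) : Cl k (a + b) (fun x => f x - g x) := by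
  intro l hl x
  have e : iteratedFDeriv ℝ l (fun x => f x - g x) x =
      iteratedFDeriv ℝ l f x - iteratedFDeriv ℝ l g x :=
    iteratedFDeriv_sub_apply ((hf.of_le (by exact_mod_cast le_top)).contDiffAt)
      ((hg.of_le (by exact_mod_cast le_top)).contDiffAt)
  rw [e]
  exact (norm_sub_le _ _).trans (add_le_add (h1 l hl x) (h2 l hl x))

/-- **Row D_SM.** -/
theorem smd (hQB : RowQBD) (hGG : RowGGD) (hBA : RowBAD) (hEN : RowEND) (hSU : RowSUC) :
    RowSMD := by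
  intro n hn
  refine ⟨n + 4, fun φ q₀ hBa B η hη => ?_⟩
  obtain ⟨C₁, hC₁, hQ⟩ := hQB n (n + 2) B
  obtain ⟨hq0, -, -⟩ := hBA ∅ φ q₀ φ (fun _ => 1) q₀ (b2_empty hBa)
  obtain ⟨B₀, hB₀0, hB₀⟩ := exists_cl833 (m := n + 2) (sm_cx hBa.sq) fun x hx => by
    show ((q₀ x : ℝ) : ℂ) = 0
    rw [hq0 x hx, Complex.ofReal_zero]
  obtain ⟨C₂, hC₂, hG⟩ := hGG n hn (max C₁ B₀)
  obtain ⟨C₃, hC₃, hS⟩ := hSU n 0 1
  obtain ⟨C₄, hC₄, hE⟩ := hEN n (by omega) φ q₀ hBa B
  have p2 : 0 < C₂ := by linarith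
  have p3 : 0 < C₃ := by linarith
  have p4 : 0 < C₄ := by linarith
  set H : ℝ := C₁ + B₀ with hH
  have hH0 : 0 ≤ H := by positivity
  set d₀ : ℝ := η / C₄ with hd₀
  have hd₀0 : 0 < d₀ := by positivity
  set K : ℝ := max 1 (2 * C₃ * H / d₀) with hK
  have hK1 : 1 ≤ K := le_max_left _ _
  have hK0 : 0 < K := by linarith
  have hKH : C₃ * (H / K) ≤ d₀ / 2 := by
    have h1 : 2 * C₃ * H / d₀ ≤ K := le_max_right _ _
    rw [div_le_iff₀ hd₀0] at h1
    rw [← mul_div_assoc, div_le_iff₀ hK0]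
    linarith
  set d : ℝ := d₀ / (2 * C₃ * K ^ n) with hd
  have hd0 : 0 < d := by positivity
  have hKd : C₃ * (K ^ n * d) = d₀ / 2 := by
    rw [hd]
    field_simp
  set X : ℝ := max (max C₂ (2 * K)) (2 * C₂ / d) with hX
  have hX1 : C₂ ≤ X := (le_max_left _ _).trans (le_max_left _ _)
  have hX2 : 2 * K ≤ X := (le_max_right _ _).trans (le_max_left _ _)
  have hX3 : C₂ * (1 / X) ≤ d / 2 := by
    have hX0 : 0 < X := by linarith
    have h1 : 2 * C₂ / d ≤ X := le_max_right _ _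
    rw [div_le_iff₀ hd0] at h1
    rw [mul_one_div, div_le_iff₀ hX0]
    linarith
  have hX0 : 0 < X := by linarith
  set ε : ℝ := min (min 1 d₀) (min (d / (2 * C₂ * X ^ 2)) (1 / (C₂ * X))) with hε
  have hε0 : 0 < ε := by positivity
  have e1 : ε ≤ 1 := (min_le_left _ _).trans (min_le_left _ _)
  have e2 : ε ≤ d₀ := (min_le_left _ _).trans (min_le_right _ _)
  have e3 : C₂ * (X ^ 2 * ε) ≤ d / 2 := by
    have h1 : ε ≤ d / (2 * C₂ * X ^ 2) := (min_le_right _ _).trans (min_le_left _ _)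
    rw [le_div_iff₀ (by positivity)] at h1
    linarith
  have e4 : C₂ * X * ε ≤ 1 := by
    have h1 : ε ≤ 1 / (C₂ * X) := (min_le_right _ _).trans (min_le_right _ _)
    rw [le_div_iff₀ (by positivity)] at h1
    linarith
  refine ⟨ε, hε0, fun Ω φ₂ t q hB hφ₂ hinv hent => ?_⟩
  obtain ⟨-, hq1, -⟩ := hBA Ω φ q₀ φ₂ t q hB
  have hq : Cl (n + 2) C₁ (cx q) := hQ φ₂ q t hB.p₂ hB.sm hB.sq hB.eq
    (cl_up hφ₂ (by omega) le_rfl) hinv (fun i j => cl_up (hent i j) (by omega) e1)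
  have sf : ContDiff ℝ ∞ (fun x => cx q x - cx q₀ x) := (sm_cx hB.sq).sub (sm_cx hBa.sq)
  have hf : Cl (n + 2) H (fun x => cx q x - cx q₀ x) :=
    cl_subC (sm_cx hB.sq) (sm_cx hBa.sq) hq hB₀
  have hlow : ∀ ξ : V n, nr ξ ≤ K → ‖ft (fun x => cx q x - cx q₀ x) ξ‖ ≤ d := by
    intro ξ hξ
    refine (hG ξ X hX1 (by linarith) Ω φ q₀ φ₂ t q hB
      (cl_up hB₀ (by omega) (le_max_right _ _)) (cl_up hq (by omega) (le_max_left _ _)) ε hε0.le
      (fun i j => cl_up (hent i j) (by omega) le_rfl) e4).trans ?_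
    rw [mul_add]
    linarith
  have hsup := hS K d H hK1 hd0.le hH0 (fun x => cx q x - cx q₀ x) sf (fun x hx => by
    show ((q x : ℝ) : ℂ) - ((q₀ x : ℝ) : ℂ) = 0
    rw [hq1 x (bal_core833 hx), hq0 x (bal_core833 hx), sub_self]) hlow
    (cl_up hf (by omega) le_rfl)
  have hsup' : ∀ x, ‖cx q x - cx q₀ x‖ ≤ d₀ := by
    intro x
    have h1 := hsup 0 le_rfl x
    rw [norm_iteratedFDeriv_zero] at h1
    refine h1.trans ?_
    rw [mul_add, pow_one, zero_add]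
    linarith
  intro x
  have h2 := hE Ω φ₂ t q hB (cl_up hφ₂ (by omega) le_rfl) d₀ hd₀0.le hsup'
    (fun i j => cl_up (hent i j) (by omega) e2) x
  refine h2.trans (le_of_eq ?_)
  rw [hd₀]
  field_simp

end Vale.Agent.P088.H833.D
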